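import Crest.Agent.Lib.Sweep.Main

/-!
The sweep: statement on one interval and the total.
-/

set_option autoImplicit false

noncomputable section

namespace Crest.Agent.Lib.Sweep

open scoped ENNReal
open Set MeasureTheory
open Crest.Agent.Lib.Tet

lemma total_bound {N : ℕ} (t : Fin (N + 1) → ℝ) (g : ℝ → ℝ)
    (hint : ∀ i : Fin N, IntervalIntegrable g volume (t i.castSucc) (t i.succ))
    (v : Fin N → ℝ) {κ E α β η : ℝ} (h0 : t 0 = α) (hl : t (Fin.last N) = β)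
    (hb : ∀ i, |v i - κ * ∫ x in t i.castSucc..t i.succ, g x| ≤
      κ * (t i.succ - t i.castSucc) * E)
    (hη : κ * (β - α) * E ≤ η) :
    |∑ i, v i - κ * ∫ x in α..β, g x| ≤ η := by
  have h1 := (sum_adjacent g N t hint).2
  have h2 := (sum_adjacent (fun _ => (1 : ℝ)) N t (fun i => intervalIntegrable_const)).2
  simp only [intervalIntegral.integral_const, smul_eq_mul, mul_one] at h2
  rw [h0, hl] at h1 h2
  rw [← h1, Finset.mul_sum, ← Finset.sum_sub_distrib]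
  refine le_trans (Finset.abs_sum_le_sum_abs _ _) (le_trans (Finset.sum_le_sum fun i _ => hb i) ?_)
  have h3 : ∑ i : Fin N, κ * (t i.succ - t i.castSucc) * E =
      κ * (∑ i : Fin N, (t i.succ - t i.castSucc)) * E := by
    rw [Finset.mul_sum, Finset.sum_mul]
  rw [h3, h2]
  exact hη

theorem interval_data {e a b p₀ : E3} (he : ‖e‖ = 1) (ha : inner ℝ a e = (0 : ℝ))
    (hb : inner ℝ b e = (0 : ℝ)) (hab : LinearIndependent ℝ ![a, b]) {L : ℝ} (hL : 0 < L)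
    {α β : ℝ} {R : ℝ → ℝ} (hR0 : ∀ t ∈ Icc α β, 0 ≤ R t) {w : ℝ → E3}
    (hw : ∀ t ∈ Icc α β, inner ℝ (w t) e = (0 : ℝ))
    {lam : ℝ → ℝ} (hlam : ContinuousOn lam (Icc α β))
    (hw' : ∀ t ∈ Icc α β, HasDerivWithinAt w (lam t • (a + t • b)) (Icc α β) t)
    {M Rb : ℝ} (hM0 : 0 < M) (hM : ∀ x ∈ Icc α β, |lam x| ≤ M) (hRb : ∀ x ∈ Icc α β, R x ≤ Rb)
    (hgc : ContinuousOn (fun τ => R τ ^ 2 / (2 * Real.sqrt (1 + ‖w τ‖ ^ 2))) (Icc α β))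
    {l r c ζ : ℝ} (hl : α ≤ l) (hlc : l ≤ c) (hcr : c ≤ r) (hr : r ≤ β) (hlr : l < r) (hζ : 0 < ζ)
    (hζ1 : ζ ≤ 1) (hRζ : ∀ τ ∈ Icc l r, |R τ - R c| ≤ ζ)
    (hgζ : ∀ τ ∈ Icc l r, |R τ ^ 2 / (2 * Real.sqrt (1 + ‖w τ‖ ^ 2)) -
      R c ^ 2 / (2 * Real.sqrt (1 + ‖w c‖ ^ 2))| ≤ ζ)
    (hsmall : (2 + 3 / ζ) * (L * M * (r - l)) ≤ ζ) :
    ∃ p q t : E3, inner ℝ p (e + w c) = (0 : ℝ) ∧ inner ℝ q (e + w c) = (0 : ℝ) ∧
      inner ℝ t (e + w c) = (0 : ℝ) ∧ AffineIndependent ℝ ![p, q, t] ∧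
      (∀ τ ∈ Icc l r, ∀ ρ ∈ Icc 0 (R τ), ∀ s : ℝ, |s| ≤ L →
        prj (e + w c) (p₀ + ρ • (a + τ • b) + s • (e + w τ)) ∈
          convexHull ℝ ({p, q, t} : Set E3)) ∧
      |(μHE[2] (convexHull ℝ ({p, q, t} : Set E3))).toReal -
        Real.sqrt (gram a b) * ∫ τ in l..r, R τ ^ 2 / (2 * Real.sqrt (1 + ‖w τ‖ ^ 2))| ≤
        Real.sqrt (gram a b) * (r - l) * (ζ * (3 + 2 * Rb + (Rb + 2) ^ 2)) ∧
      |(μHE[2] (prj (e + w c) '' {x : E3 | ∃ τ ∈ Icc l r, ∃ ρ ∈ Icc 0 (R τ), ∃ s : ℝ, |s| ≤ L ∧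
          x = p₀ + ρ • (a + τ • b) + s • (e + w τ)})).toReal -
        Real.sqrt (gram a b) * ∫ τ in l..r, R τ ^ 2 / (2 * Real.sqrt (1 + ‖w τ‖ ^ 2))| ≤
        Real.sqrt (gram a b) * (r - l) * (ζ * (3 + 2 * Rb + (Rb + 2) ^ 2)) := by
  have hcmem : c ∈ Icc α β := ⟨hl.trans hlc, hcr.trans hr⟩
  have hsubI : Icc l r ⊆ Icc α β := Icc_subset_Icc hl hr
  have hΔ : 0 < r - l := by linarith
  obtain ⟨p, q, t, hp, hq, ht, hai, hcov, harea, hlow⟩ := piece (p₀ := p₀) he ha hb hab hL hR0 hw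
    hlam hw' hM0 hM hl hlc hcr hr hlr hζ hRζ
  refine ⟨p, q, t, hp, hq, ht, hai, hcov, ?_⟩
  set κ := Real.sqrt (gram a b) with hκ
  have hκ0 : 0 ≤ κ := Real.sqrt_nonneg _
  obtain ⟨hd2, -⟩ := gram_prj he ha hb hab (hw c hcmem)
  set D := ‖e + w c‖ with hD
  have hD0 : 0 ≤ D := norm_nonneg _
  have hDsq : Real.sqrt (1 + ‖w c‖ ^ 2) = D := by
    rw [← hd2, Real.sqrt_sq hD0]
  have hD1 : 1 ≤ D := by
    rw [← hDsq]
    apply Real.one_le_sqrt.2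
    nlinarith [sq_nonneg ‖w c‖]
  rw [hDsq] at hgζ
  set m := L * M * (r - l) with hm
  have hm0 : 0 ≤ m := by positivity
  have hRc := hR0 c hcmem
  set l₀ := R c + ζ + m + (m + 3 * m / ζ) with hl₀
  have hl1 : R c + ζ ≤ l₀ := by
    have : 0 ≤ 3 * m / ζ := by positivity
    rw [hl₀]; linarith
  have hl2 : l₀ ≤ R c + 2 * ζ := by
    have e1 : (2 + 3 / ζ) * m = m + (m + 3 * m / ζ) := by
      field_simp
      ring
    rw [hl₀]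
    linarith
  set r₀ := max (R c - ζ) 0 with hr₀
  set I := ∫ τ in l..r, R τ ^ 2 / (2 * Real.sqrt (1 + ‖w τ‖ ^ 2)) with hI
  -- the up and down bounds
  have hup0 : 0 ≤ l₀ ^ 2 * ((r - l) * (1 + 2 * ζ)) * (κ / D) / 2 := by
    positivity
  have hlo0 : 0 ≤ r₀ ^ 2 * (r - l) * (κ / D) / 2 := by
    positivity
  have hsubset : prj (e + w c) '' {x : E3 | ∃ τ ∈ Icc l r, ∃ ρ ∈ Icc 0 (R τ), ∃ s : ℝ, |s| ≤ L ∧
          x = p₀ + ρ • (a + τ • b) + s • (e + w τ)} ⊆ convexHull ℝ ({p, q, t} : Set E3) := by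
    rintro _ ⟨x, ⟨τ, hτ, ρ, hρ, s, hs, rfl⟩, rfl⟩
    exact hcov τ hτ ρ hρ s hs
  have hv2up : μHE[2] (prj (e + w c) '' {x : E3 | ∃ τ ∈ Icc l r, ∃ ρ ∈ Icc 0 (R τ), ∃ s : ℝ,
      |s| ≤ L ∧ x = p₀ + ρ • (a + τ • b) + s • (e + w τ)}) ≤
        ENNReal.ofReal (l₀ ^ 2 * ((r - l) * (1 + 2 * ζ)) * (κ / D) / 2) := by
    rw [← harea]
    exact measure_mono hsubset
  set v₂ := (μHE[2] (prj (e + w c) '' {x : E3 | ∃ τ ∈ Icc l r, ∃ ρ ∈ Icc 0 (R τ), ∃ s : ℝ,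
      |s| ≤ L ∧ x = p₀ + ρ • (a + τ • b) + s • (e + w τ)})).toReal with hv₂
  have hv2u : v₂ ≤ l₀ ^ 2 * ((r - l) * (1 + 2 * ζ)) * (κ / D) / 2 := by
    have := ENNReal.toReal_mono ENNReal.ofReal_ne_top hv2up
    rwa [ENNReal.toReal_ofReal hup0] at this
  have hv2l : r₀ ^ 2 * (r - l) * (κ / D) / 2 ≤ v₂ := by
    have hfin := ne_top_of_le_ne_top ENNReal.ofReal_ne_top hv2up
    exact (ENNReal.ofReal_le_iff_le_toReal hfin).1 hlow
  have hv1 : (μHE[2] (convexHull ℝ ({p, q, t} : Set E3))).toReal =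
      l₀ ^ 2 * ((r - l) * (1 + 2 * ζ)) * (κ / D) / 2 := by
    rw [harea, ENNReal.toReal_ofReal hup0]
  -- the integral
  have hIb : |I - (r - l) * (R c ^ 2 / (2 * D))| ≤ (r - l) * ζ := by
    have hsub : uIcc l r ⊆ Icc α β := by
      rw [uIcc_of_le hlr.le]; exact hsubI
    have hint : IntervalIntegrable (fun τ => R τ ^ 2 / (2 * Real.sqrt (1 + ‖w τ‖ ^ 2)))
        volume l r := (hgc.mono hsub).intervalIntegrable
    have h1 : I - (r - l) * (R c ^ 2 / (2 * D)) =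
        ∫ τ in l..r, (R τ ^ 2 / (2 * Real.sqrt (1 + ‖w τ‖ ^ 2)) - R c ^ 2 / (2 * D)) := by
      rw [intervalIntegral.integral_sub hint intervalIntegrable_const,
        intervalIntegral.integral_const, smul_eq_mul]
    have h2 := intervalIntegral.norm_integral_le_of_norm_le_const (a := l) (b := r) (C := ζ)
      (f := fun τ => R τ ^ 2 / (2 * Real.sqrt (1 + ‖w τ‖ ^ 2)) - R c ^ 2 / (2 * D))
      (fun x hx => by
        rw [Real.norm_eq_abs]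
        rw [uIoc_of_le hlr.le] at hx
        exact hgζ x (Ioc_subset_Icc_self hx))
    rw [← h1, Real.norm_eq_abs, abs_of_pos hΔ] at h2
    rw [mul_comm (r - l) ζ]
    exact h2
  constructor
  · rw [hv1]
    refine numeric hκ0 hD1 hRc (hRb c hcmem) hζ hζ1 hΔ.le hl1 hl2 ?_ le_rfl hIb
    exact hv2l.trans hv2u
  · exact numeric hκ0 hD1 hRc (hRb c hcmem) hζ hζ1 hΔ.le hl1 hl2 hv2l hv2u hIb

end Crest.Agent.Lib.Sweep
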