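import Crest.Agent.Lib.Tet.Area

/-!
Gram determinants and the projection along a vector.
-/

set_option autoImplicit false

noncomputable section

namespace Crest.Agent.Lib.Sweep

open scoped ENNReal
open Set MeasureTheory
open Crest.Agent.Lib.Tet

abbrev E3 := EuclideanSpace ℝ (Fin 3)

section General

variable {X : Type*} [NormedAddCommGroup X] [InnerProductSpace ℝ X]

lemma gram_comb (A B : X) (x₁ y₁ x₂ y₂ : ℝ) :
    gram (x₁ • A + y₁ • B) (x₂ • A + y₂ • B) = (x₁ * y₂ - y₁ * x₂) ^ 2 * gram A B := by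
  simp only [gram, ← real_inner_self_eq_norm_sq, inner_add_left, inner_add_right, inner_smul_left,
    inner_smul_right, real_inner_comm A B, conj_trivial]
  ring

/-- The projection along `d`. -/
def prj (d y : X) : X := y - (inner ℝ y d / ‖d‖ ^ 2) • d

lemma prj_add (d x y : X) : prj d (x + y) = prj d x + prj d y := by
  simp only [prj, inner_add_left, add_div, add_smul]
  abel

lemma prj_smul (d : X) (r : ℝ) (y : X) : prj d (r • y) = r • prj d y := by
  simp only [prj, inner_smul_left, conj_trivial, smul_sub, smul_smul]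
  congr 2
  ring

lemma prj_self {d : X} (hd : d ≠ 0) : prj d d = 0 := by
  have h : ‖d‖ ^ 2 ≠ 0 := by
    have := norm_pos_iff.2 hd
    positivity
  rw [prj, real_inner_self_eq_norm_sq, div_self h, one_smul, sub_self]

lemma prj_inner {d : X} (hd : d ≠ 0) (y : X) : inner ℝ (prj d y) d = (0 : ℝ) := by
  have h : ‖d‖ ^ 2 ≠ 0 := by
    have := norm_pos_iff.2 hd
    positivity
  rw [prj, inner_sub_left, inner_smul_left, real_inner_self_eq_norm_sq, conj_trivial]
  field_simp
  ring

lemma eq_prj_add (d y : X) : y = prj d y + (inner ℝ y d / ‖d‖ ^ 2) • d := by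
  rw [prj]; abel

lemma prj_inner_prj {d : X} (hd : d ≠ 0) (x y : X) :
    inner ℝ (prj d x) (prj d y) = (inner ℝ x y : ℝ) - inner ℝ x d * inner ℝ y d / ‖d‖ ^ 2 := by
  have h : ‖d‖ ^ 2 ≠ 0 := by
    have := norm_pos_iff.2 hd
    positivity
  simp only [prj, inner_sub_left, inner_sub_right, inner_smul_left, inner_smul_right,
    real_inner_self_eq_norm_sq, real_inner_comm y d, real_inner_comm x d, conj_trivial]
  field_simp
  ring

lemma gram_pos_of_li {a b : X} (hab : LinearIndependent ℝ ![a, b]) : 0 < gram a b := by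
  rw [LinearIndependent.pair_iff] at hab
  have ha : a ≠ 0 := by
    intro h
    have := hab 1 0 (by simp [h])
    exact one_ne_zero this.1
  have hapos : 0 < ‖a‖ := norm_pos_iff.2 ha
  set t : ℝ := inner ℝ a b / ‖a‖ ^ 2 with ht
  set v : X := b - t • a with hv
  have hvne : v ≠ 0 := by
    intro h
    have := hab (-t) 1 (by rw [← h, hv]; simp only [neg_smul, one_smul]; abel)
    exact one_ne_zero this.2
  have hvpos : 0 < ‖v‖ := norm_pos_iff.2 hvne
  have hkey : gram a b = ‖a‖ ^ 2 * ‖v‖ ^ 2 := by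
    have hn : ‖v‖ ^ 2 = ‖b‖ ^ 2 - 2 * t * inner ℝ a b + t ^ 2 * ‖a‖ ^ 2 := by
      rw [hv, @norm_sub_sq_real, norm_smul, inner_smul_right, real_inner_comm a b, mul_pow,
        Real.norm_eq_abs, sq_abs]
      ring
    rw [hn, gram, ht]
    field_simp
    ring
  rw [hkey]
  positivity

end General

/-- A vector orthogonal to `e` is a combination of `a, b` in three-space. -/
lemma exists_comb {e a b w : E3} (he : ‖e‖ = 1) (ha : inner ℝ a e = (0 : ℝ))
    (hb : inner ℝ b e = (0 : ℝ)) (hab : LinearIndependent ℝ ![a, b]) (hw : inner ℝ w e = (0 : ℝ)) :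
    ∃ w₁ w₂ : ℝ, w = w₁ • a + w₂ • b := by
  have hee : inner ℝ e e = (1 : ℝ) := by
    rw [real_inner_self_eq_norm_sq, he]; norm_num
  have hli : LinearIndependent ℝ ![a, b, e] := by
    rw [Fintype.linearIndependent_iff]
    intro g hg
    simp only [Fin.sum_univ_three, Matrix.cons_val_zero, Matrix.cons_val_one, Matrix.cons_val] at hg
    have h2 : g 2 = 0 := by
      have := congrArg (fun x => inner ℝ x e) hg
      simp only [inner_add_left, inner_smul_left, ha, hb, hee, inner_zero_left, conj_trivial] at this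
      simpa using this
    rw [h2, zero_smul, add_zero] at hg
    rw [LinearIndependent.pair_iff] at hab
    obtain ⟨h0, h1⟩ := hab _ _ hg
    intro i
    fin_cases i
    · exact h0
    · exact h1
    · exact h2
  let B := basisOfLinearIndependentOfCardEqFinrank hli (by simp)
  have hB : ∀ i, B i = ![a, b, e] i := fun i => by
    simp [B]
  have hsum := B.sum_repr w
  rw [Fin.sum_univ_three, hB, hB, hB] at hsum
  simp only [Matrix.cons_val_zero, Matrix.cons_val_one, Matrix.cons_val] at hsum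
  have h3 : B.repr w 2 = 0 := by
    have := congrArg (fun x => inner ℝ x e) hsum
    simp only [inner_add_left, inner_smul_left, ha, hb, hee, hw, conj_trivial] at this
    simpa using this
  refine ⟨B.repr w 0, B.repr w 1, ?_⟩
  rw [h3, zero_smul, add_zero] at hsum
  exact hsum.symm

/-- The Gram determinant after the projection along `e + w`. -/
lemma gram_prj {e a b w : E3} (he : ‖e‖ = 1) (ha : inner ℝ a e = (0 : ℝ))
    (hb : inner ℝ b e = (0 : ℝ)) (hab : LinearIndependent ℝ ![a, b]) (hw : inner ℝ w e = (0 : ℝ)) :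
    ‖e + w‖ ^ 2 = 1 + ‖w‖ ^ 2 ∧
      gram (prj (e + w) a) (prj (e + w) b) = gram a b / ‖e + w‖ ^ 2 := by
  have hd2 : ‖e + w‖ ^ 2 = 1 + ‖w‖ ^ 2 := by
    rw [@norm_add_sq_real, he, real_inner_comm, hw]
    ring
  refine ⟨hd2, ?_⟩
  obtain ⟨w₁, w₂, rfl⟩ := exists_comb he ha hb hab hw
  set w := w₁ • a + w₂ • b with hwdef
  have hne : e + w ≠ 0 := by
    intro h
    rw [h] at hd2
    have : 0 ≤ ‖w‖ ^ 2 := by positivity
    simp at hd2
    nlinarith
  have hD : (‖e + w‖ ^ 2) ≠ 0 := by
    have := norm_pos_iff.2 hne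
    positivity
  have h1 := prj_inner_prj hne a a
  have h2 := prj_inner_prj hne b b
  have h3 := prj_inner_prj hne a b
  rw [real_inner_self_eq_norm_sq] at h1 h2
  rw [real_inner_self_eq_norm_sq] at h1 h2
  have hae : inner ℝ a (e + w) = w₁ * ‖a‖ ^ 2 + w₂ * inner ℝ a b := by
    rw [inner_add_right, ha, hwdef, inner_add_right, inner_smul_right,
      inner_smul_right, real_inner_self_eq_norm_sq]
    ring
  have hbe : inner ℝ b (e + w) = w₁ * inner ℝ a b + w₂ * ‖b‖ ^ 2 := by
    rw [inner_add_right, hb, hwdef, inner_add_right, inner_smul_right,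
      inner_smul_right, real_inner_self_eq_norm_sq, real_inner_comm a b]
    ring
  have hww : ‖w‖ ^ 2 = w₁ ^ 2 * ‖a‖ ^ 2 + 2 * w₁ * w₂ * inner ℝ a b + w₂ ^ 2 * ‖b‖ ^ 2 := by
    rw [hwdef, @norm_add_sq_real, norm_smul, norm_smul, inner_smul_left, inner_smul_right,
      Real.norm_eq_abs, Real.norm_eq_abs, mul_pow, mul_pow, sq_abs, sq_abs, conj_trivial]
    ring
  rw [gram, h1, h2, h3, hae, hbe, gram]
  set D := ‖e + w‖ ^ 2 with hDdef
  have hDval : D = 1 + (w₁ ^ 2 * ‖a‖ ^ 2 + 2 * w₁ * w₂ * inner ℝ a b + w₂ ^ 2 * ‖b‖ ^ 2) := by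
    rw [hd2, hww]
  field_simp
  rw [hDval]
  ring

end Crest.Agent.Lib.Sweep
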