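import Crest.Agent.Lib.Sweep.Piece

/-!
The sweep: summing up over a partition.
-/

set_option autoImplicit false

noncomputable section

namespace Crest.Agent.Lib.Sweep

open scoped ENNReal
open Set MeasureTheory
open Crest.Agent.Lib.Tet

lemma numeric {κ D R Rb ζ Δ l₀ v I : ℝ} (hκ : 0 ≤ κ) (hD : 1 ≤ D) (hR : 0 ≤ R) (hRb : R ≤ Rb)
    (hζ : 0 < ζ) (hζ1 : ζ ≤ 1) (hΔ : 0 ≤ Δ) (hl1 : R + ζ ≤ l₀) (hl2 : l₀ ≤ R + 2 * ζ)
    (hlo : max (R - ζ) 0 ^ 2 * Δ * (κ / D) / 2 ≤ v)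
    (hup : v ≤ l₀ ^ 2 * (Δ * (1 + 2 * ζ)) * (κ / D) / 2)
    (hI : |I - Δ * (R ^ 2 / (2 * D))| ≤ Δ * ζ) :
    |v - κ * I| ≤ κ * Δ * (ζ * (3 + 2 * Rb + (Rb + 2) ^ 2)) := by
  have hDpos : 0 < D := by linarith
  set x := 1 / D with hx
  have hx0 : 0 < x := by positivity
  have hx1 : x ≤ 1 := by
    rw [hx, div_le_one hDpos]; exact hD
  have hκD : κ / D = κ * x := by rw [hx]; ring
  have hRD : R ^ 2 / (2 * D) = R ^ 2 * x / 2 := by rw [hx]; field_simp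
  rw [hκD] at hlo hup
  rw [hRD] at hI
  have hI' := abs_le.1 hI
  have hκΔ : 0 ≤ κ * Δ := mul_nonneg hκ hΔ
  set r₀ := max (R - ζ) 0 with hr₀
  have hr₀0 : 0 ≤ r₀ := le_max_right _ _
  have hr₀R : r₀ ≤ R := max_le (by linarith) hR
  have hRb0 : 0 ≤ Rb := hR.trans hRb
  -- the upper estimate
  have hW0 : 0 ≤ l₀ ^ 2 * (1 + 2 * ζ) - R ^ 2 := by
    have h1 : R ^ 2 ≤ l₀ ^ 2 := pow_le_pow_left₀ hR (by linarith) 2
    nlinarith [sq_nonneg l₀]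
  have hW1 : (l₀ ^ 2 * (1 + 2 * ζ) - R ^ 2) / 2 + ζ ≤ ζ * (3 + 2 * Rb + (Rb + 2) ^ 2) := by
    have h1 : l₀ ^ 2 ≤ (R + 2 * ζ) ^ 2 :=
      pow_le_pow_left₀ (by linarith) hl2 2
    have h2 : (R + 2 * ζ) ^ 2 ≤ (Rb + 2) ^ 2 := pow_le_pow_left₀ (by positivity) (by linarith) 2
    have h3 : l₀ ^ 2 * (1 + 2 * ζ) ≤ (R + 2 * ζ) ^ 2 + 2 * ζ * (Rb + 2) ^ 2 := by
      have : l₀ ^ 2 * (2 * ζ) ≤ (Rb + 2) ^ 2 * (2 * ζ) :=
        mul_le_mul_of_nonneg_right (h1.trans h2) (by positivity)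
      nlinarith
    have h4 : (R + 2 * ζ) ^ 2 - R ^ 2 ≤ ζ * (4 * Rb + 4) := by
      have : ζ * ζ ≤ ζ * 1 := mul_le_mul_of_nonneg_left hζ1 hζ.le
      have : ζ * R ≤ ζ * Rb := mul_le_mul_of_nonneg_left hRb hζ.le
      nlinarith
    nlinarith
  have hupper : v - κ * I ≤ κ * Δ * (ζ * (3 + 2 * Rb + (Rb + 2) ^ 2)) := by
    have h1 : κ * (Δ * (R ^ 2 * x / 2) - Δ * ζ) ≤ κ * I :=
      mul_le_mul_of_nonneg_left (by linarith [hI'.1]) hκ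
    have h2 : x * (l₀ ^ 2 * (1 + 2 * ζ) - R ^ 2) ≤ l₀ ^ 2 * (1 + 2 * ζ) - R ^ 2 := by
      nlinarith
    have h3 : v - κ * I ≤ κ * Δ * (x * (l₀ ^ 2 * (1 + 2 * ζ) - R ^ 2) / 2 + ζ) := by
      have e : l₀ ^ 2 * (Δ * (1 + 2 * ζ)) * (κ * x) / 2 - κ * (Δ * (R ^ 2 * x / 2) - Δ * ζ) =
          κ * Δ * (x * (l₀ ^ 2 * (1 + 2 * ζ) - R ^ 2) / 2 + ζ) := by ring
      linarith
    have h4 : κ * Δ * (x * (l₀ ^ 2 * (1 + 2 * ζ) - R ^ 2) / 2 + ζ) ≤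
        κ * Δ * (ζ * (3 + 2 * Rb + (Rb + 2) ^ 2)) :=
      mul_le_mul_of_nonneg_left (by linarith) hκΔ
    linarith
  -- the lower estimate
  have hV0 : 0 ≤ R ^ 2 - r₀ ^ 2 := by
    have := pow_le_pow_left₀ hr₀0 hr₀R 2
    linarith
  have hV1 : (R ^ 2 - r₀ ^ 2) / 2 + ζ ≤ ζ * (3 + 2 * Rb + (Rb + 2) ^ 2) := by
    have h1 : R ^ 2 - r₀ ^ 2 ≤ ζ * (2 * Rb + 1) := by
      have hcase : R - ζ ≤ r₀ := le_max_left _ _
      by_cases hRζ : R ≤ ζ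
      · have a1 : R ^ 2 ≤ ζ * ζ := by nlinarith
        have a2 : ζ * ζ ≤ ζ * 1 := mul_le_mul_of_nonneg_left hζ1 hζ.le
        have a3 : 0 ≤ ζ * Rb := by positivity
        nlinarith [sq_nonneg r₀]
      · have hRζ' : 0 ≤ R - ζ := by linarith [not_le.1 hRζ]
        have a1 : (R - ζ) ^ 2 ≤ r₀ ^ 2 := pow_le_pow_left₀ hRζ' hcase 2
        have a3 : ζ * R ≤ ζ * Rb := mul_le_mul_of_nonneg_left hRb hζ.le
        nlinarith [sq_nonneg ζ]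
    have h2 : 0 ≤ ζ * (Rb + 2) ^ 2 := by positivity
    have h3 : 0 ≤ ζ * Rb := by positivity
    nlinarith
  have hlower : κ * I - v ≤ κ * Δ * (ζ * (3 + 2 * Rb + (Rb + 2) ^ 2)) := by
    have h1 : κ * I ≤ κ * (Δ * (R ^ 2 * x / 2) + Δ * ζ) :=
      mul_le_mul_of_nonneg_left (by linarith [hI'.2]) hκ
    have h2 : x * (R ^ 2 - r₀ ^ 2) ≤ R ^ 2 - r₀ ^ 2 := by
      nlinarith
    have h3 : κ * I - v ≤ κ * Δ * (x * (R ^ 2 - r₀ ^ 2) / 2 + ζ) := by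
      have e : κ * (Δ * (R ^ 2 * x / 2) + Δ * ζ) - r₀ ^ 2 * Δ * (κ * x) / 2 =
          κ * Δ * (x * (R ^ 2 - r₀ ^ 2) / 2 + ζ) := by ring
      linarith
    have h4 : κ * Δ * (x * (R ^ 2 - r₀ ^ 2) / 2 + ζ) ≤
        κ * Δ * (ζ * (3 + 2 * Rb + (Rb + 2) ^ 2)) :=
      mul_le_mul_of_nonneg_left (by linarith) hκΔ
    linarith
  rw [abs_le]
  constructor <;> linarith

lemma sum_adjacent (f : ℝ → ℝ) : ∀ (N : ℕ) (t : Fin (N + 1) → ℝ),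
    (∀ i : Fin N, IntervalIntegrable f volume (t i.castSucc) (t i.succ)) →
    IntervalIntegrable f volume (t 0) (t (Fin.last N)) ∧
    ∑ i : Fin N, ∫ x in t i.castSucc..t i.succ, f x = ∫ x in t 0..t (Fin.last N), f x := by
  intro N
  induction N with
  | zero =>
    intro t _
    simp
  | succ N ih =>
    intro t ht
    obtain ⟨h1, h2⟩ := ih (fun j => t j.castSucc) (fun i => by
      have h := ht i.castSucc
      rw [Fin.succ_castSucc] at h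
      exact h)
    have h3 := ht (Fin.last N)
    rw [Fin.succ_last] at h3
    have e0 : (Fin.castSucc (0 : Fin (N + 1))) = 0 := rfl
    simp only [e0] at h1 h2
    refine ⟨h1.trans h3, ?_⟩
    rw [Fin.sum_univ_castSucc]
    simp only [Fin.succ_castSucc, Fin.succ_last]
    rw [h2]
    exact intervalIntegral.integral_add_adjacent_intervals h1 h3

lemma exists_interval {N : ℕ} (t : Fin (N + 1) → ℝ) {τ : ℝ} (h0 : t 0 ≤ τ)
    (hlast : τ ≤ t (Fin.last N)) (hne : t 0 < t (Fin.last N)) :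
    ∃ i : Fin N, t i.castSucc ≤ τ ∧ τ ≤ t i.succ := by
  by_contra hcon
  push Not at hcon
  have key : ∀ j : Fin (N + 1), t j ≤ τ ∧ (j ≠ 0 → t j < τ) := by
    intro j
    induction j using Fin.induction with
    | zero => exact ⟨h0, fun h => absurd rfl h⟩
    | succ i ih =>
      exact ⟨(hcon i ih.1).le, fun _ => hcon i ih.1⟩
  by_cases hz : Fin.last N = 0
  · rw [hz] at hne
    exact lt_irrefl _ hne
  · exact absurd hlast (not_le.2 ((key _).2 hz))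

end Crest.Agent.Lib.Sweep
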