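import Crest.Agent.Lib.Sweep.Tri

/-!
One piece of the sweep.
-/

set_option autoImplicit false

noncomputable section

namespace Crest.Agent.Lib.Sweep

open scoped ENNReal
open Set MeasureTheory
open Crest.Agent.Lib.Tet

lemma prj_coord {e a b p₀ wc wτ : E3} {c τ ρ s G₁ G₂ : ℝ} (hne : e + wc ≠ 0)
    (hw : wτ - wc = G₁ • (a + c • b) + G₂ • b) :
    prj (e + wc) (p₀ + ρ • (a + τ • b) + s • (e + wτ)) =
      prj (e + wc) p₀ + (ρ + s * G₁) • prj (e + wc) (a + c • b) +
        ((τ - c) * ρ + s * G₂) • prj (e + wc) b := by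
  have hwτ : wτ = wc + (G₁ • (a + c • b) + G₂ • b) := by rw [← hw]; abel
  have hx : p₀ + ρ • (a + τ • b) + s • (e + wτ) =
      p₀ + (ρ + s * G₁) • (a + c • b) + ((τ - c) * ρ + s * G₂) • b + s • (e + wc) := by
    rw [hwτ]; module
  rw [hx, prj_add, prj_add, prj_add, prj_smul, prj_smul, prj_smul, prj_self hne, smul_zero,
    add_zero]

lemma prj_coord0 {e a b p₀ wc wτ : E3} {c τ ρ : ℝ} :
    prj (e + wc) (p₀ + ρ • (a + τ • b) + (0 : ℝ) • (e + wτ)) =
      prj (e + wc) p₀ + ρ • prj (e + wc) (a + c • b) + (ρ * (τ - c)) • prj (e + wc) b := by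
  have hx : p₀ + ρ • (a + τ • b) + (0 : ℝ) • (e + wτ) =
      p₀ + ρ • (a + c • b) + (ρ * (τ - c)) • b := by
    module
  rw [hx, prj_add, prj_add, prj_smul, prj_smul]

lemma w_diff {α β : ℝ} {lam : ℝ → ℝ} (hlam : ContinuousOn lam (Icc α β)) {w : ℝ → E3} {a b : E3}
    (hw' : ∀ t ∈ Icc α β, HasDerivWithinAt w (lam t • (a + t • b)) (Icc α β) t)
    {c τ : ℝ} (hc : c ∈ Icc α β) (hτ : τ ∈ Icc α β) :
    w τ - w c = (∫ v in c..τ, lam v) • (a + c • b) + (∫ v in c..τ, (v - c) * lam v) • b := by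
  have hsub : uIcc c τ ⊆ Icc α β := uIcc_subset_Icc hc hτ
  have hcont : ContinuousOn w (uIcc c τ) := fun x hx =>
    (hw' x (hsub hx)).continuousWithinAt.mono hsub
  have hderiv : ∀ x ∈ Ioo (min c τ) (max c τ),
      HasDerivWithinAt w (lam x • (a + x • b)) (Ioi x) x := by
    intro x hx
    have hx' : x ∈ Ioo α β :=
      ⟨lt_of_le_of_lt (le_min hc.1 hτ.1) hx.1, lt_of_lt_of_le hx.2 (max_le hc.2 hτ.2)⟩
    have := (hw' x (Ioo_subset_Icc_self hx')).hasDerivAt (Icc_mem_nhds hx'.1 hx'.2)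
    exact this.hasDerivWithinAt
  have hlam' : ContinuousOn lam (uIcc c τ) := hlam.mono hsub
  have hfc : ContinuousOn (fun v => lam v • (a + v • b)) (uIcc c τ) :=
    hlam'.smul (continuousOn_const.add (continuousOn_id.smul continuousOn_const))
  have hint : IntervalIntegrable (fun v => lam v • (a + v • b)) volume c τ :=
    hfc.intervalIntegrable
  have hftc := intervalIntegral.integral_eq_sub_of_hasDeriv_right hcont hderiv hint
  rw [← hftc]
  have hsplit : ∀ v, lam v • (a + v • b) = lam v • (a + c • b) + ((v - c) * lam v) • b := by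
    intro v; module
  simp_rw [hsplit]
  have h1 : IntervalIntegrable (fun v => lam v • (a + c • b)) volume c τ :=
    (hlam'.smul continuousOn_const).intervalIntegrable
  have h2 : IntervalIntegrable (fun v => ((v - c) * lam v) • b) volume c τ :=
    (((continuousOn_id.sub continuousOn_const).mul hlam').smul continuousOn_const).intervalIntegrable
  rw [intervalIntegral.integral_add h1 h2, intervalIntegral.integral_smul_const,
    intervalIntegral.integral_smul_const]

lemma G_bounds {α β M : ℝ} {lam : ℝ → ℝ} (hM : ∀ x ∈ Icc α β, |lam x| ≤ M) {c τ : ℝ}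
    (hc : c ∈ Icc α β) (hτ : τ ∈ Icc α β) :
    |∫ v in c..τ, lam v| ≤ M * |τ - c| ∧
      |∫ v in c..τ, (v - c) * lam v| ≤ (|τ - c| * M) * |τ - c| := by
  have hsub : uIcc c τ ⊆ Icc α β := uIcc_subset_Icc hc hτ
  constructor
  · have := intervalIntegral.norm_integral_le_of_norm_le_const (a := c) (b := τ) (C := M)
      (f := lam) (fun x hx => hM x (hsub (uIoc_subset_uIcc hx)))
    simpa using this
  · have := intervalIntegral.norm_integral_le_of_norm_le_const (a := c) (b := τ)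
      (C := |τ - c| * M) (f := fun v => (v - c) * lam v) (fun x hx => by
        have hx' := uIoc_subset_uIcc hx
        rw [Real.norm_eq_abs, abs_mul]
        exact mul_le_mul (abs_sub_left_of_mem_uIcc hx') (hM x (hsub hx')) (abs_nonneg _)
          (abs_nonneg _))
    simpa using this

theorem piece {e a b p₀ : E3} (he : ‖e‖ = 1) (ha : inner ℝ a e = (0 : ℝ))
    (hb : inner ℝ b e = (0 : ℝ)) (hab : LinearIndependent ℝ ![a, b]) {L : ℝ} (hL : 0 < L)
    {α β : ℝ} {R : ℝ → ℝ} (hR0 : ∀ t ∈ Icc α β, 0 ≤ R t) {w : ℝ → E3}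
    (hw : ∀ t ∈ Icc α β, inner ℝ (w t) e = (0 : ℝ))
    {lam : ℝ → ℝ} (hlam : ContinuousOn lam (Icc α β))
    (hw' : ∀ t ∈ Icc α β, HasDerivWithinAt w (lam t • (a + t • b)) (Icc α β) t)
    {M : ℝ} (hM0 : 0 < M) (hM : ∀ x ∈ Icc α β, |lam x| ≤ M)
    {l r c ζ : ℝ} (hl : α ≤ l) (hlc : l ≤ c) (hcr : c ≤ r) (hr : r ≤ β) (hlr : l < r) (hζ : 0 < ζ)
    (hRζ : ∀ τ ∈ Icc l r, |R τ - R c| ≤ ζ) :
    ∃ p q t : E3, inner ℝ p (e + w c) = (0 : ℝ) ∧ inner ℝ q (e + w c) = (0 : ℝ) ∧
      inner ℝ t (e + w c) = (0 : ℝ) ∧ AffineIndependent ℝ ![p, q, t] ∧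
      (∀ τ ∈ Icc l r, ∀ ρ ∈ Icc 0 (R τ), ∀ s : ℝ, |s| ≤ L →
        prj (e + w c) (p₀ + ρ • (a + τ • b) + s • (e + w τ)) ∈
          convexHull ℝ ({p, q, t} : Set E3)) ∧
      μHE[2] (convexHull ℝ ({p, q, t} : Set E3)) =
        ENNReal.ofReal ((R c + ζ + L * M * (r - l) + (L * M * (r - l) + 3 * (L * M * (r - l)) / ζ)) ^ 2 *
          ((r - l) * (1 + 2 * ζ)) * (Real.sqrt (gram a b) / ‖e + w c‖) / 2) ∧
      ENNReal.ofReal (max (R c - ζ) 0 ^ 2 * (r - l) * (Real.sqrt (gram a b) / ‖e + w c‖) / 2) ≤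
        μHE[2] (prj (e + w c) '' {x : E3 | ∃ τ ∈ Icc l r, ∃ ρ ∈ Icc 0 (R τ), ∃ s : ℝ, |s| ≤ L ∧
          x = p₀ + ρ • (a + τ • b) + s • (e + w τ)}) := by
  have hcmem : c ∈ Icc α β := ⟨hl.trans hlc, hcr.trans hr⟩
  have hsubI : Icc l r ⊆ Icc α β := Icc_subset_Icc hl hr
  have hΔ : 0 < r - l := by linarith
  set d := e + w c with hd
  obtain ⟨hd2, hgram⟩ := gram_prj he ha hb hab (hw c hcmem)
  have hne : d ≠ 0 := by
    intro h
    rw [← hd, h] at hd2
    have : 0 ≤ ‖w c‖ ^ 2 := by positivity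
    simp at hd2
    nlinarith
  have hdpos : 0 < ‖d‖ := norm_pos_iff.2 hne
  have hgab := gram_pos_of_li hab
  set O := prj d p₀ with hO
  set A := prj d (a + c • b) with hA
  set B := prj d b with hB
  have hAeq : A = (1 : ℝ) • prj d a + c • prj d b := by
    rw [hA, prj_add, prj_smul, one_smul]
  have hBeq : B = (0 : ℝ) • prj d a + (1 : ℝ) • prj d b := by
    rw [zero_smul, zero_add, one_smul]
  have hgAB : gram A B = gram a b / ‖d‖ ^ 2 := by
    rw [hAeq, hBeq, gram_comb, hgram]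
    ring
  have hgpos : 0 < gram A B := by
    rw [hgAB]; positivity
  have hsq : Real.sqrt (gram A B) = Real.sqrt (gram a b) / ‖d‖ := by
    rw [hgAB, Real.sqrt_div hgab.le, Real.sqrt_sq hdpos.le]
  set m := L * M * (r - l) with hm
  have hm0 : 0 ≤ m := by positivity
  set K := m + 3 * m / ζ with hK
  set X₁ := R c + ζ + m with hX₁
  have hRc := hR0 c hcmem
  have hl0 : 0 < X₁ + K := by positivity
  have hσ : (l - c) - ζ * (r - l) < (r - c) + ζ * (r - l) := by
    have : 0 < ζ * (r - l) := by positivity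
    linarith
  obtain ⟨p, q, t, hp, hq, ht, hai, hmem, harea⟩ := tri_data O A B d (prj_inner hne _)
    (prj_inner hne _) (prj_inner hne _) hgpos hl0 hσ
  have hdiff : (r - c + ζ * (r - l)) - (l - c - ζ * (r - l)) = (r - l) * (1 + 2 * ζ) := by ring
  rw [hdiff, hsq] at harea
  refine ⟨p, q, t, hp, hq, ht, hai, ?_, harea, ?_⟩
  · intro τ hτ ρ hρ s hs
    have hτI := hsubI hτ
    obtain ⟨hG1, hG2⟩ := G_bounds hM hcmem hτI
    have hwd := w_diff hlam hw' hcmem hτI
    set G₁ := ∫ v in c..τ, lam v with hG₁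
    set G₂ := ∫ v in c..τ, (v - c) * lam v with hG₂
    rw [prj_coord hne hwd]
    set u := τ - c with hu
    have hau : |u| ≤ r - l := by
      rw [abs_le]; constructor <;> linarith [hτ.1, hτ.2]
    have hau0 := abs_nonneg u
    have hs0 := abs_nonneg s
    -- bounds
    have hsG1 : |s * G₁| ≤ m := by
      rw [abs_mul, hm]
      calc |s| * |G₁| ≤ L * (M * |u|) := mul_le_mul hs hG1 (abs_nonneg _) hL.le
        _ ≤ L * (M * (r - l)) := by gcongr
        _ = L * M * (r - l) := by ring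
    have hEb : |s * G₂ - u * (s * G₁)| ≤ 2 * m * (r - l) := by
      have h1 : |s * G₂| ≤ m * (r - l) := by
        rw [abs_mul, hm]
        calc |s| * |G₂| ≤ L * ((|u| * M) * |u|) := mul_le_mul hs hG2 (abs_nonneg _) hL.le
          _ ≤ L * (((r - l) * M) * (r - l)) := by gcongr
          _ = L * M * (r - l) * (r - l) := by ring
      have h2 : |u * (s * G₁)| ≤ m * (r - l) := by
        rw [abs_mul, mul_comm]
        exact mul_le_mul hsG1 hau hau0 hm0
      have h3 := abs_sub (s * G₂) (u * (s * G₁))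
      linarith
    set X := ρ + s * G₁ with hX
    set Y := u * ρ + s * G₂ with hY
    have hXm : -m ≤ X := by
      have := (abs_le.1 hsG1).1
      linarith [hρ.1]
    have hXp : X ≤ X₁ := by
      have h1 := (abs_le.1 hsG1).2
      have h2 := (abs_le.1 (hRζ τ hτ)).2
      have h3 := hρ.2
      rw [hX₁]
      linarith
    have hP : 3 * m ≤ ζ * (X + K) := by
      have h1 : ζ * (X + K) = ζ * (X + m) + 3 * m := by
        rw [hK]; field_simp; ring
      have h2 : 0 ≤ ζ * (X + m) := mul_nonneg hζ.le (by linarith)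
      linarith
    have hP0 : 0 ≤ X + K := by
      have : 0 ≤ 3 * m / ζ := by positivity
      rw [hK]; linarith
    have hYeq : Y = u * X + (s * G₂ - u * (s * G₁)) := by
      rw [hY, hX]; ring
    have hEb' := abs_le.1 hEb
    have hK0 : 0 ≤ K := by positivity
    have hΔP : (r - l) * (3 * m) ≤ (r - l) * (ζ * (X + K)) :=
      mul_le_mul_of_nonneg_left hP hΔ.le
    have hu1 : l - c ≤ u := by rw [hu]; linarith [hτ.1]
    have hu2 : u ≤ r - c := by rw [hu]; linarith [hτ.2]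
    refine hmem X Y hP0 hXp ?_ ?_
    · -- lower edge
      have a1 : 0 ≤ (u - (l - c)) * (X + m) := mul_nonneg (by linarith) (by linarith)
      have a2 : 0 ≤ ((r - l) - (u - (l - c))) * m := mul_nonneg (by linarith) hm0
      have a3 : 0 ≤ (c - l) * K := mul_nonneg (by linarith) hK0
      rw [hYeq]
      nlinarith
    · -- upper edge
      have a1 : 0 ≤ ((r - c) - u) * (X + m) := mul_nonneg (by linarith) (by linarith)
      have a2 : 0 ≤ ((r - l) - ((r - c) - u)) * m := mul_nonneg (by linarith) hm0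
      have a3 : 0 ≤ (r - c) * K := mul_nonneg (by linarith) hK0
      rw [hYeq]
      nlinarith
  · have hlow := tri_lower O A B hgpos (r₀ := max (R c - ζ) 0) (um := l - c) (up := r - c)
      (le_max_right _ _) (by linarith)
      (prj d '' {x : E3 | ∃ τ ∈ Icc l r, ∃ ρ ∈ Icc 0 (R τ), ∃ s : ℝ, |s| ≤ L ∧
          x = p₀ + ρ • (a + τ • b) + s • (e + w τ)})
      (by
        intro ρ hρ u hu
        have hτ : c + u ∈ Icc l r := ⟨by linarith [hu.1], by linarith [hu.2]⟩
        refine ⟨p₀ + ρ • (a + (c + u) • b) + (0 : ℝ) • (e + w (c + u)), ⟨c + u, hτ, ρ, ⟨hρ.1, ?_⟩,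
          0, by simp [hL.le], rfl⟩, ?_⟩
        · refine hρ.2.trans (max_le ?_ (hR0 _ (hsubI hτ)))
          have := (abs_le.1 (hRζ _ hτ)).1
          linarith
        · rw [prj_coord0 (c := c)]
          simp only [add_sub_cancel_left]
          rfl)
    have hdiff2 : r - c - (l - c) = r - l := by ring
    rw [hdiff2, hsq] at hlow
    exact hlow

end Crest.Agent.Lib.Sweep
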