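import Crest.Agent.Lib.Sweep.Gram

/-!
The triangles of the sweep.
-/

set_option autoImplicit false

noncomputable section

namespace Crest.Agent.Lib.Sweep

open scoped ENNReal
open Set MeasureTheory
open Crest.Agent.Lib.Tet

lemma affineIndependent_of_gram {p q r : E3} (hg : 0 < gram (q - p) (r - p)) :
    AffineIndependent ℝ ![p, q, r] := by
  rw [affineIndependent_iff_not_collinear_set]
  intro hcol
  rw [collinear_iff_of_mem (p₀ := p) (by simp)] at hcol
  obtain ⟨v, hv⟩ := hcol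
  obtain ⟨r₁, h1⟩ := hv q (by simp)
  obtain ⟨r₂, h2⟩ := hv r (by simp)
  have e1 : q - p = r₁ • v := by rw [h1]; simp [vadd_eq_add]
  have e2 : r - p = r₂ • v := by rw [h2]; simp [vadd_eq_add]
  rw [e1, e2] at hg
  have hz : gram (r₁ • v) (r₂ • v) = 0 := by
    simp only [gram, norm_smul, inner_smul_left, inner_smul_right, real_inner_self_eq_norm_sq,
      Real.norm_eq_abs, mul_pow, sq_abs, conj_trivial]
    ring
  linarith

lemma tri_data (O A B d : E3) (hO : inner ℝ O d = (0 : ℝ)) (hA : inner ℝ A d = (0 : ℝ))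
    (hB : inner ℝ B d = (0 : ℝ)) (hg : 0 < gram A B) {K X₁ σm σp : ℝ} (hl0 : 0 < X₁ + K)
    (hσ : σm < σp) :
    ∃ p q r : E3, inner ℝ p d = (0 : ℝ) ∧ inner ℝ q d = (0 : ℝ) ∧ inner ℝ r d = (0 : ℝ) ∧
      AffineIndependent ℝ ![p, q, r] ∧
      (∀ X Y : ℝ, 0 ≤ X + K → X ≤ X₁ → σm * (X + K) ≤ Y → Y ≤ σp * (X + K) →
        O + X • A + Y • B ∈ convexHull ℝ ({p, q, r} : Set E3)) ∧
      μHE[2] (convexHull ℝ ({p, q, r} : Set E3)) =
        ENNReal.ofReal ((X₁ + K) ^ 2 * (σp - σm) * Real.sqrt (gram A B) / 2) := by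
  set l₀ := X₁ + K with hl₀
  have hσ' : 0 < σp - σm := by linarith
  have e1 : (O + X₁ • A + (σm * l₀) • B) - (O - K • A) = l₀ • A + (σm * l₀) • B := by
    rw [hl₀]; module
  have e2 : (O + X₁ • A + (σp * l₀) • B) - (O - K • A) = l₀ • A + (σp * l₀) • B := by
    rw [hl₀]; module
  have hgr : gram ((O + X₁ • A + (σm * l₀) • B) - (O - K • A))
      ((O + X₁ • A + (σp * l₀) • B) - (O - K • A)) = (l₀ ^ 2 * (σp - σm)) ^ 2 * gram A B := by
    rw [e1, e2, gram_comb]
    ring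
  have hpos : 0 < gram ((O + X₁ • A + (σm * l₀) • B) - (O - K • A))
      ((O + X₁ • A + (σp * l₀) • B) - (O - K • A)) := by
    rw [hgr]
    positivity
  refine ⟨O - K • A, O + X₁ • A + (σm * l₀) • B, O + X₁ • A + (σp * l₀) • B, ?_, ?_, ?_,
    affineIndependent_of_gram hpos, ?_, ?_⟩
  · rw [inner_sub_left, inner_smul_left, hO, hA]; simp
  · rw [inner_add_left, inner_add_left, inner_smul_left, inner_smul_left, hO, hA, hB]; simp
  · rw [inner_add_left, inner_add_left, inner_smul_left, inner_smul_left, hO, hA, hB]; simp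
  · intro X Y h1 h2 h3 h4
    set s₀ := (σp * (X + K) - Y) / ((σp - σm) * l₀) with hs₀
    set s₁ := (Y - σm * (X + K)) / ((σp - σm) * l₀) with hs₁
    have hdenom : 0 < (σp - σm) * l₀ := by positivity
    have hs₀0 : 0 ≤ s₀ := div_nonneg (by linarith) hdenom.le
    have hs₁0 : 0 ≤ s₁ := div_nonneg (by linarith) hdenom.le
    have hsum : s₀ + s₁ = (X + K) / l₀ := by
      rw [hs₀, hs₁]
      field_simp
      ring
    have hsum1 : s₀ + s₁ ≤ 1 := by
      rw [hsum, div_le_one hl0, hl₀]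
      linarith
    have hmem := mem_triangle (O - K • A) (O + X₁ • A + (σm * l₀) • B)
      (O + X₁ • A + (σp * l₀) • B) (a := 1 - s₀ - s₁) (b := s₀) (c := s₁) (by linarith) hs₀0 hs₁0
      (by ring)
    have h5 : -K * (1 - s₀ - s₁) + (s₀ + s₁) * X₁ = X := by
      have : (s₀ + s₁) * l₀ = X + K := by
        rw [hsum]; field_simp
      rw [hl₀] at this
      linarith
    have h6 : (s₀ * σm + s₁ * σp) * l₀ = Y := by
      rw [hs₀, hs₁]
      field_simp
      ring
    have hvec : (1 - s₀ - s₁) • (O - K • A) + s₀ • (O + X₁ • A + (σm * l₀) • B)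
        + s₁ • (O + X₁ • A + (σp * l₀) • B) =
        O + (-K * (1 - s₀ - s₁) + (s₀ + s₁) * X₁) • A + ((s₀ * σm + s₁ * σp) * l₀) • B := by
      module
    rw [hvec, h5, h6] at hmem
    exact hmem
  · rw [area_triangle _ _ _ hpos, hgr, Real.sqrt_mul (by positivity), Real.sqrt_sq (by positivity)]

lemma tri_lower (O A B : E3) (hg : 0 < gram A B) {r₀ um up : ℝ} (hr₀ : 0 ≤ r₀) (hu : um < up)
    (T : Set E3) (hsub : ∀ ρ ∈ Icc 0 r₀, ∀ u ∈ Icc um up, O + ρ • A + (ρ * u) • B ∈ T) :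
    ENNReal.ofReal (r₀ ^ 2 * (up - um) * Real.sqrt (gram A B) / 2) ≤ μHE[2] T := by
  rcases hr₀.eq_or_lt with rfl | hr
  · simp
  have hu' : 0 < up - um := by linarith
  have e1 : (O + r₀ • A + (r₀ * um) • B) - O = r₀ • A + (r₀ * um) • B := by
    module
  have e2 : (O + r₀ • A + (r₀ * up) • B) - O = r₀ • A + (r₀ * up) • B := by
    module
  have hgr : gram ((O + r₀ • A + (r₀ * um) • B) - O) ((O + r₀ • A + (r₀ * up) • B) - O) =
      (r₀ ^ 2 * (up - um)) ^ 2 * gram A B := by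
    rw [e1, e2, gram_comb]
    ring
  have hpos : 0 < gram ((O + r₀ • A + (r₀ * um) • B) - O) ((O + r₀ • A + (r₀ * up) • B) - O) := by
    rw [hgr]
    positivity
  have harea := area_triangle O (O + r₀ • A + (r₀ * um) • B) (O + r₀ • A + (r₀ * up) • B) hpos
  rw [hgr, Real.sqrt_mul (by positivity), Real.sqrt_sq (by positivity)] at harea
  rw [← harea]
  apply measure_mono
  rw [convexHull_triangle_eq]
  rintro _ ⟨s, ⟨h0, h1, h2⟩, rfl⟩
  rw [e1, e2]
  by_cases hz : s 0 + s 1 = 0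
  · have a0 : s 0 = 0 := by linarith
    have a1 : s 1 = 0 := by linarith
    have := hsub 0 ⟨le_rfl, hr.le⟩ um ⟨le_rfl, hu.le⟩
    simp only [zero_smul, zero_mul, add_zero] at this
    simp only [a0, a1, zero_smul, add_zero]
    exact this
  · have hpos' : 0 < s 0 + s 1 := lt_of_le_of_ne (by positivity) (Ne.symm hz)
    set ρ := r₀ * (s 0 + s 1) with hρ
    set u := (s 0 * um + s 1 * up) / (s 0 + s 1) with hudef
    have hρ1 : ρ ∈ Icc 0 r₀ := ⟨by positivity, by rw [hρ]; nlinarith⟩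
    have hu1 : u ∈ Icc um up := by
      constructor
      · rw [hudef, le_div_iff₀ hpos']; nlinarith
      · rw [hudef, div_le_iff₀ hpos']; nlinarith
    have := hsub ρ hρ1 u hu1
    convert this using 1
    have h3 : ρ * u = r₀ * (s 0 * um + s 1 * up) := by
      rw [hρ, hudef]; field_simp
    rw [h3, hρ]
    module

end Crest.Agent.Lib.Sweep
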